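import Vale.Agent.Lib.P147.Apply

open MeasureTheory

/-- Directional zero-one law for the iid environments whose projection modulo `ℤ δ` is autonomous.
If for each unit step `e` the row mass on the steps `e'` with `e - e' ∈ {0, δ, -δ}` is almost
surely constant, then the annealed law exists and gives `A_ℓ` probability `0` or `1` for all `ℓ`. -/
theorem Vale.Agent.Results.P147.AutonomousProjection.result {d : ℕ}
    (μ : Measure (Vale.Agent.Lib.P147.Row d)) [IsProbabilityMeasure μ]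
    (δ : Vale.Agent.Lib.P147.Site d) (hδ : δ ≠ 0)
    (hμ : ∀ e : Vale.Agent.Lib.P147.Step d, ∃ c : ℝ,
      ∀ᵐ p ∂μ, Vale.Agent.Lib.P147.classMass δ e p = c) :
    (∃ Q, Vale.Agent.Lib.P147.IsAnnealedLaw μ Q) ∧
      ∀ Q, Vale.Agent.Lib.P147.IsAnnealedLaw μ Q → ∀ ℓ : Fin d → ℝ,
        Q (Vale.Agent.Lib.P147.escapeEvent ℓ) = 0 ∨ Q (Vale.Agent.Lib.P147.escapeEvent ℓ) = 1 :=
  Vale.Agent.Lib.P147.main_theorem μ δ hδ hμ
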