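import Vale.Agent.Lib.P147.Flux

open MeasureTheory
open scoped ENNReal

/-- Flux inequality for an arbitrary iid environment law. For every direction `ℓ`, the first
point of the path on the level `s` of `ℓ` lies in the window `S` (event `firstHit ℓ s S`), and
likewise for `-ℓ`, levels `s'` and window `S'`. The product of the two probabilities is at most
`|S'| · P_0(firstHit ℓ s S, not A_ℓ) + |S| · P_0(firstHit (-ℓ) s' S', not A_{-ℓ})`.
In particular, for `ℓ ≠ 0`, `s, s' > 0` and times `t, t'`, the probabilities of reaching the two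
levels by those times have product at most
`(2t'+1)^(d-1) · P_0(reach s, not A_ℓ) + (2t+1)^(d-1) · P_0(reach s' in direction -ℓ, not A_{-ℓ})`.
-/
theorem Vale.Agent.Results.P147.FluxInequality.result {d : ℕ}
    (μ : Measure (Vale.Agent.Lib.P147.Row d)) [IsProbabilityMeasure μ] :
    (∃ Q, Vale.Agent.Lib.P147.IsAnnealedLaw μ Q) ∧
      ∀ Q, Vale.Agent.Lib.P147.IsAnnealedLaw μ Q → ∀ ℓ : Fin d → ℝ,
        (∀ (s s' : ℝ) (S S' : Finset (Vale.Agent.Lib.P147.Site d)),
          Q (Vale.Agent.Lib.P147.firstHit ℓ s S) * Q (Vale.Agent.Lib.P147.firstHit (-ℓ) s' S') ≤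
            (S'.card : ℝ≥0∞) *
                Q (Vale.Agent.Lib.P147.firstHit ℓ s S \ Vale.Agent.Lib.P147.escapeEvent ℓ) +
              (S.card : ℝ≥0∞) *
                Q (Vale.Agent.Lib.P147.firstHit (-ℓ) s' S' \
                  Vale.Agent.Lib.P147.escapeEvent (-ℓ))) ∧
        (ℓ ≠ 0 → ∀ (s s' : ℝ), 0 < s → 0 < s' → ∀ t t' : ℕ,
          Q (Vale.Agent.Lib.P147.reachBy ℓ s t) * Q (Vale.Agent.Lib.P147.reachBy (-ℓ) s' t') ≤
            ((2 * t' + 1 : ℝ≥0∞)) ^ (d - 1) *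
                Q (Vale.Agent.Lib.P147.reachEver ℓ s \ Vale.Agent.Lib.P147.escapeEvent ℓ) +
              ((2 * t + 1 : ℝ≥0∞)) ^ (d - 1) *
                Q (Vale.Agent.Lib.P147.reachEver (-ℓ) s' \
                  Vale.Agent.Lib.P147.escapeEvent (-ℓ))) :=
  ⟨(Vale.Agent.Lib.P147.flux_main μ).1, fun Q hQ ℓ =>
    ⟨(Vale.Agent.Lib.P147.flux_main μ).2 Q hQ ℓ, fun hℓ _ _ hs hs' t t' =>
      Vale.Agent.Lib.P147.backtrack_main μ Q hQ ℓ hℓ hs hs' t t'⟩⟩
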