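import Vale.Agent.Results.P147.PolynomialRange
import Vale.Agent.Results.P147.AutonomousProjection
import Vale.Agent.Results.P147.FluxInequality

namespace Vale.Agent.Results.P147.A0Conj

theorem result :
    (open MeasureTheory Filter Vale.Agent.Lib.P147 Vale.Agent.Lib.P147.Poly in ∀ {d : ℕ} (hd : 3 ≤ d) (μ : Measure (Row d))
    [IsProbabilityMeasure μ] (hμ : ∀ e : Step d, μ {p | 0 < p.1 e} ≠ 0),
      (∃ Q, IsAnnealedLaw μ Q) ∧ ∀ Q, IsAnnealedLaw μ Q → ∀ i : Fin d,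
      (∀ β₁ β₂ : ℝ, 1 ≤ β₁ → 1 ≤ β₂ → (β₁ + β₂ < ((d : ℝ) + 1) / 2 ∨ (β₁ = 1 ∧ β₂ = 1)) →
        Q {X | Tendsto (fun n => X n i) atTop atTop ∧ ∃ c : ℕ, ∀ᶠ m : ℕ in atTop,
          ({v | ∃ k, X k = v ∧ ∀ j ≤ k, X j i < (m : ℤ)} : Set (Site d)).encard ≤
            ((⌈(c : ℝ) * (m : ℝ) ^ β₁⌉₊ : ℕ) : ℕ∞)} = 0 ∨
        Q {X | Tendsto (fun n => -X n i) atTop atTop ∧ ∃ c : ℕ, ∀ᶠ m : ℕ in atTop,
          ({v | ∃ k, X k = v ∧ ∀ j ≤ k, -X j i < (m : ℤ)} : Set (Site d)).encard ≤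
            ((⌈(c : ℝ) * (m : ℝ) ^ β₂⌉₊ : ℕ) : ℕ∞)} = 0) ∧
      (∀ α₁ α₂ : ℝ, 0 < α₁ → 0 < α₂ → α₁ ≤ 1 → α₂ ≤ 1 → 1 / α₁ + 1 / α₂ < ((d : ℝ) + 1) / 2 →
        Q {X | ∃ c : ℝ, 0 < c ∧ ∀ᶠ n : ℕ in atTop, c * (n : ℝ) ^ α₁ ≤ (X n i : ℝ)} = 0 ∨
        Q {X | ∃ c : ℝ, 0 < c ∧ ∀ᶠ n : ℕ in atTop, c * (n : ℝ) ^ α₂ ≤ -(X n i : ℝ)} = 0)) ∧
    (open MeasureTheory in ∀ {d : ℕ}
    (μ : Measure (Vale.Agent.Lib.P147.Row d)) [IsProbabilityMeasure μ]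
    (δ : Vale.Agent.Lib.P147.Site d) (hδ : δ ≠ 0)
    (hμ : ∀ e : Vale.Agent.Lib.P147.Step d, ∃ c : ℝ,
      ∀ᵐ p ∂μ, Vale.Agent.Lib.P147.classMass δ e p = c),
      (∃ Q, Vale.Agent.Lib.P147.IsAnnealedLaw μ Q) ∧
      ∀ Q, Vale.Agent.Lib.P147.IsAnnealedLaw μ Q → ∀ ℓ : Fin d → ℝ,
        Q (Vale.Agent.Lib.P147.escapeEvent ℓ) = 0 ∨ Q (Vale.Agent.Lib.P147.escapeEvent ℓ) = 1) ∧
    (open MeasureTheory in open scoped ENNReal in ∀ {d : ℕ}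
    (μ : Measure (Vale.Agent.Lib.P147.Row d)) [IsProbabilityMeasure μ],
      (∃ Q, Vale.Agent.Lib.P147.IsAnnealedLaw μ Q) ∧
      ∀ Q, Vale.Agent.Lib.P147.IsAnnealedLaw μ Q → ∀ ℓ : Fin d → ℝ,
        (∀ (s s' : ℝ) (S S' : Finset (Vale.Agent.Lib.P147.Site d)),
          Q (Vale.Agent.Lib.P147.firstHit ℓ s S) * Q (Vale.Agent.Lib.P147.firstHit (-ℓ) s' S') ≤
            (S'.card : ℝ≥0∞) *
                Q (Vale.Agent.Lib.P147.firstHit ℓ s S \ Vale.Agent.Lib.P147.escapeEvent ℓ) +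
              (S.card : ℝ≥0∞) *
                Q (Vale.Agent.Lib.P147.firstHit (-ℓ) s' S' \
                  Vale.Agent.Lib.P147.escapeEvent (-ℓ))) ∧
        (ℓ ≠ 0 → ∀ (s s' : ℝ), 0 < s → 0 < s' → ∀ t t' : ℕ,
          Q (Vale.Agent.Lib.P147.reachBy ℓ s t) * Q (Vale.Agent.Lib.P147.reachBy (-ℓ) s' t') ≤
            ((2 * t' + 1 : ℝ≥0∞)) ^ (d - 1) *
                Q (Vale.Agent.Lib.P147.reachEver ℓ s \ Vale.Agent.Lib.P147.escapeEvent ℓ) +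
              ((2 * t + 1 : ℝ≥0∞)) ^ (d - 1) *
                Q (Vale.Agent.Lib.P147.reachEver (-ℓ) s' \
                  Vale.Agent.Lib.P147.escapeEvent (-ℓ)))) :=
  ⟨@Vale.Agent.Results.P147.PolynomialRange.result, @Vale.Agent.Results.P147.AutonomousProjection.result, @Vale.Agent.Results.P147.FluxInequality.result⟩

end Vale.Agent.Results.P147.A0Conj
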