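import Vale.Agent.Lib.P147.TwoSided

open MeasureTheory Filter
open Vale.Agent.Lib.P147

/-- In dimension at least three, for an iid environment in which every unit step has positive
probability at a site with positive probability (in particular for every elliptic law), the annealed
law exists, and the walk cannot have positive speed in both directions of a coordinate axis with
positive probabilities. -/
theorem Vale.Agent.Results.P147.NoTwoSpeeds.result {d : ℕ} (hd : 3 ≤ d) (μ : Measure (Row d))
    [IsProbabilityMeasure μ] (hμ : ∀ e : Step d, μ {p | 0 < p.1 e} ≠ 0) :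
    (∃ Q, IsAnnealedLaw μ Q) ∧ ∀ Q, IsAnnealedLaw μ Q → ∀ (i : Fin d) (c c' : ℝ), 0 < c → 0 < c' →
      Q {X | ∀ᶠ n : ℕ in atTop, c * (n : ℝ) ≤ (X n i : ℝ)} = 0 ∨
        Q {X | ∀ᶠ n : ℕ in atTop, c' * (n : ℝ) ≤ -(X n i : ℝ)} = 0 := by
  refine ⟨⟨_, isAnnealedLaw_map1 (i₀ := ⟨0, by omega⟩)⟩, fun Q hQ i c c' hc hc' => ?_⟩
  exact no_two_speeds hd μ hμ Q hQ i hc hc'
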