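import Vale.Agent.Lib.P147.Poly.Main

open MeasureTheory Filter
open Vale.Agent.Lib.P147
open Vale.Agent.Lib.P147.Poly

/-- In dimension at least three, for an iid environment in which every unit step has positive
probability at a site with positive probability (in particular for every elliptic law), the annealed
law exists, and the walk cannot escape with positive probability in both directions of a coordinate
axis with numbers of visited sites along the levels bounded by `c m ^ β₁` and `c m ^ β₂`, provided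
`β₁ + β₂ < (d + 1) / 2` or `β₁ = β₂ = 1`. Consequently the displacements `c n ^ α₁` and `c n ^ α₂` in
the two directions cannot both have positive probability when `1 / α₁ + 1 / α₂ < (d + 1) / 2`. -/
theorem Vale.Agent.Results.P147.PolynomialRange.result {d : ℕ} (hd : 3 ≤ d) (μ : Measure (Row d))
    [IsProbabilityMeasure μ] (hμ : ∀ e : Step d, μ {p | 0 < p.1 e} ≠ 0) :
    (∃ Q, IsAnnealedLaw μ Q) ∧ ∀ Q, IsAnnealedLaw μ Q → ∀ i : Fin d,
      (∀ β₁ β₂ : ℝ, 1 ≤ β₁ → 1 ≤ β₂ → (β₁ + β₂ < ((d : ℝ) + 1) / 2 ∨ (β₁ = 1 ∧ β₂ = 1)) →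
        Q {X | Tendsto (fun n => X n i) atTop atTop ∧ ∃ c : ℕ, ∀ᶠ m : ℕ in atTop,
          ({v | ∃ k, X k = v ∧ ∀ j ≤ k, X j i < (m : ℤ)} : Set (Site d)).encard ≤
            ((⌈(c : ℝ) * (m : ℝ) ^ β₁⌉₊ : ℕ) : ℕ∞)} = 0 ∨
        Q {X | Tendsto (fun n => -X n i) atTop atTop ∧ ∃ c : ℕ, ∀ᶠ m : ℕ in atTop,
          ({v | ∃ k, X k = v ∧ ∀ j ≤ k, -X j i < (m : ℤ)} : Set (Site d)).encard ≤
            ((⌈(c : ℝ) * (m : ℝ) ^ β₂⌉₊ : ℕ) : ℕ∞)} = 0) ∧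
      (∀ α₁ α₂ : ℝ, 0 < α₁ → 0 < α₂ → α₁ ≤ 1 → α₂ ≤ 1 → 1 / α₁ + 1 / α₂ < ((d : ℝ) + 1) / 2 →
        Q {X | ∃ c : ℝ, 0 < c ∧ ∀ᶠ n : ℕ in atTop, c * (n : ℝ) ^ α₁ ≤ (X n i : ℝ)} = 0 ∨
        Q {X | ∃ c : ℝ, 0 < c ∧ ∀ᶠ n : ℕ in atTop, c * (n : ℝ) ^ α₂ ≤ -(X n i : ℝ)} = 0) := by
  refine ⟨⟨_, isAnnealedLaw_map1 (i₀ := ⟨0, by omega⟩)⟩, fun Q hQ i => ⟨?_, ?_⟩⟩
  · intro β₁ β₂ h1 h2 h3
    exact poly_range_all hd hμ Q hQ i h1 h2 h3
  · intro α₁ α₂ h1 h2 h3 h4 h5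
    have hd4 : 4 ≤ d := by
      by_contra hcon
      have hd3 : d = 3 := by omega
      subst hd3
      have e1 : 1 ≤ 1 / α₁ := by
        rw [le_div_iff₀ h1]
        linarith
      have e2 : 1 ≤ 1 / α₂ := by
        rw [le_div_iff₀ h2]
        linarith
      norm_num at h5
      norm_num at e1 e2
      linarith
    exact poly_speed hd4 hμ Q hQ i h1 h2 h3 h4 h5
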