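import Vale.Agent.Lib.P147.RangeMain

open MeasureTheory Filter
open Vale.Agent.Lib.P147

/-- In dimension at least three, for an iid environment in which every unit step has positive
probability at a site with positive probability (in particular for every elliptic law), the annealed
law exists, and the walk cannot escape with positive probability in both directions of a coordinate
axis with a number of visited sites growing at most linearly along the levels. Speed zero is
allowed here: only the number of distinct sites visited before the first passage at the level `m`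
is counted. -/
theorem Vale.Agent.Results.P147.RangeGrowth.result {d : ℕ} (hd : 3 ≤ d) (μ : Measure (Row d))
    [IsProbabilityMeasure μ] (hμ : ∀ e : Step d, μ {p | 0 < p.1 e} ≠ 0) :
    (∃ Q, IsAnnealedLaw μ Q) ∧ ∀ Q, IsAnnealedLaw μ Q → ∀ i : Fin d,
      Q {X | Tendsto (fun n => X n i) atTop atTop ∧ ∃ c : ℕ, ∀ᶠ m : ℕ in atTop,
        ({v | ∃ k, X k = v ∧ ∀ j ≤ k, X j i < (m : ℤ)} : Set (Site d)).encard ≤
          ((c * m : ℕ) : ℕ∞)} = 0 ∨
      Q {X | Tendsto (fun n => -X n i) atTop atTop ∧ ∃ c : ℕ, ∀ᶠ m : ℕ in atTop,
        ({v | ∃ k, X k = v ∧ ∀ j ≤ k, -X j i < (m : ℤ)} : Set (Site d)).encard ≤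
          ((c * m : ℕ) : ℕ∞)} = 0 := by
  refine ⟨⟨_, isAnnealedLaw_map1 (i₀ := ⟨0, by omega⟩)⟩, fun Q hQ i => ?_⟩
  exact range_growth hd μ hμ Q hQ i
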